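import Vale.Agent.Lib.P074.Main

/-!
# P074: no stability exponent above `1/3` is admissible

For the uniform measure on the unit cube `[0,1]^d` (`d ≥ 2`) and two-atom targets in the closed
ball of radius `2`, the optimal maps `T_μ`, `T_ν` satisfy `‖T_μ - T_ν‖_{L²(ρ)} ≥ c W₂(μ, ν)^(1/3)`
along a family with `W₂(μ, ν) → 0`.  Hence no exponent `α > 1/3` is admissible; in particular the
exponent `1/2` is not admissible.
-/

namespace Vale.Agent.Results.P074.AboveOneThird

open Vale.Agent.Lib.P074

/-- In every dimension `d ≥ 2`, no exponent `α > 1/3` is admissible. -/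
theorem result : ∀ d : ℕ, 2 ≤ d → ∀ α : ℝ, 1 / 3 < α → ¬ Admissible d α :=
  fun d hd α hα => not_admissible d hd α hα

end Vale.Agent.Results.P074.AboveOneThird
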