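import Vale.Agent.Lib.P074.Quant

/-!
# P074: a quantitative instability example on the unit cube

On the unit cube `[0,1]^d` (`d ≥ 2`), for every `δ ∈ (0,1]` there are two probability measures
`μ`, `ν` supported in the closed ball of radius `2` and optimal maps `T`, `S` from the uniform
measure of the cube to `μ`, `ν` with `W₂(μ, ν) ≤ δ^(3/2) / 4` but `‖T - S‖_{L²(ρ)} ≥ δ^(1/2) / 16`.
So the modulus of continuity of `μ ↦ T_μ` with respect to `W₂` is no better than a multiple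
of `W₂^(1/3)`.
-/

namespace Vale.Agent.Results.P074.CubeQuantitative

open Vale.Agent.Lib.P074 MeasureTheory

/-- Quantitative instability on the unit cube: `W₂ ≤ δ^(3/2)/4` while the optimal maps are at
`L²` distance at least `δ^(1/2)/16`. -/
theorem result : ∀ d : ℕ, 2 ≤ d → ∀ δ : ℝ, 0 < δ → δ ≤ 1 →
    ∃ (μ ν : Measure (EuclideanSpace ℝ (Fin d)))
      (T S : EuclideanSpace ℝ (Fin d) → EuclideanSpace ℝ (Fin d)),
      ProbOn (Metric.closedBall 0 2) μ ∧ ProbOn (Metric.closedBall 0 2) ν ∧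
      IsOptMap (unif {x : EuclideanSpace ℝ (Fin d) | ∀ i, x i ∈ Set.Icc (0:ℝ) 1}) μ T ∧
      IsOptMap (unif {x : EuclideanSpace ℝ (Fin d) | ∀ i, x i ∈ Set.Icc (0:ℝ) 1}) ν S ∧
      W2 μ ν ≤ ENNReal.ofReal (δ ^ (3 / 2 : ℝ) / 4) ∧
      ENNReal.ofReal (δ ^ (1 / 2 : ℝ) / 16)
        ≤ L2dist (unif {x : EuclideanSpace ℝ (Fin d) | ∀ i, x i ∈ Set.Icc (0:ℝ) 1}) T S :=
  fun d hd δ hδ0 hδ1 => cube_quantitative d hd δ hδ0 hδ1

end Vale.Agent.Results.P074.CubeQuantitative
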