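import Vale.Agent.Lib.P074.Main
import Vale.Agent.Lib.P074.MainW1
import Vale.Agent.Lib.P074.Quant

/-!
# P074: the exponent bounds `1/3` (for `W₂`) and `1/4` (for `W₁`) with the explicit family

One statement with three parts, for the uniform measure on a compact convex `K ⊆ ℝ^d`, `d ≥ 2`:

* no exponent `α > 1/3` is admissible (so the exponent `1/2` is not admissible);
* with `W₁` in place of `W₂`, no exponent `β > 1/4` is admissible;
* the explicit family behind both: on the unit cube `[0,1]^d`, for every `δ ∈ (0,1]` there are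
  two probability measures `μ`, `ν` supported in the closed ball of radius `2` and optimal maps
  `T`, `S` from the uniform measure of the cube to `μ`, `ν` with `W₂(μ, ν) ≤ δ^(3/2) / 4` but
  `‖T - S‖_{L²(ρ)} ≥ δ^(1/2) / 16`.
-/

namespace Vale.Agent.Results.P074.ExponentBoundsAndCube

open Vale.Agent.Lib.P074 MeasureTheory

/-- In every dimension `d ≥ 2`: no exponent `α > 1/3` is admissible; no exponent `β > 1/4` is
admissible for the `W₁` form of the stability estimate; and on the unit cube there are, for every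
`δ ∈ (0,1]`, targets in the closed ball of radius `2` with `W₂ ≤ δ^(3/2)/4` whose optimal maps
are at `L²` distance at least `δ^(1/2)/16`. -/
theorem result :
    (∀ d : ℕ, 2 ≤ d → ∀ α : ℝ, 1 / 3 < α → ¬ Admissible d α) ∧
    (∀ d : ℕ, 2 ≤ d → ∀ β : ℝ, 1 / 4 < β → ¬ AdmissibleW1 d β) ∧
    (∀ d : ℕ, 2 ≤ d → ∀ δ : ℝ, 0 < δ → δ ≤ 1 →
      ∃ (μ ν : Measure (EuclideanSpace ℝ (Fin d)))
        (T S : EuclideanSpace ℝ (Fin d) → EuclideanSpace ℝ (Fin d)),
        ProbOn (Metric.closedBall 0 2) μ ∧ ProbOn (Metric.closedBall 0 2) ν ∧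
        IsOptMap (unif {x : EuclideanSpace ℝ (Fin d) | ∀ i, x i ∈ Set.Icc (0:ℝ) 1}) μ T ∧
        IsOptMap (unif {x : EuclideanSpace ℝ (Fin d) | ∀ i, x i ∈ Set.Icc (0:ℝ) 1}) ν S ∧
        W2 μ ν ≤ ENNReal.ofReal (δ ^ (3 / 2 : ℝ) / 4) ∧
        ENNReal.ofReal (δ ^ (1 / 2 : ℝ) / 16)
          ≤ L2dist (unif {x : EuclideanSpace ℝ (Fin d) | ∀ i, x i ∈ Set.Icc (0:ℝ) 1}) T S) :=
  ⟨fun d hd α hα => not_admissible d hd α hα,
    fun d hd β hβ => not_admissibleW1 d hd β hβ,
    fun d hd δ hδ0 hδ1 => cube_quantitative d hd δ hδ0 hδ1⟩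

end Vale.Agent.Results.P074.ExponentBoundsAndCube
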