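import Vale.Agent.Lib.P074.MainW1

/-!
# P074: with `W₁` in place of `W₂`, no stability exponent above `1/4` is admissible

The same two-atom family on the unit cube has `W₁(μ, ν) ≤ δ²/16` while
`‖T_μ - T_ν‖_{L²(ρ)} ≥ c δ^(1/2)`, so a bound `‖T_μ - T_ν‖_{L²(ρ)} ≤ C W₁(μ, ν)^β`, uniform over
targets in a compact set, forces `β ≤ 1/4`.
-/

namespace Vale.Agent.Results.P074.W1AboveOneFourth

open Vale.Agent.Lib.P074

/-- In every dimension `d ≥ 2`, no exponent `β > 1/4` is admissible for the `W₁` form of the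
stability estimate. -/
theorem result : ∀ d : ℕ, 2 ≤ d → ∀ β : ℝ, 1 / 4 < β → ¬ AdmissibleW1 d β :=
  fun d hd β hβ => not_admissibleW1 d hd β hβ

end Vale.Agent.Results.P074.W1AboveOneFourth
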